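import Mathlib
import Vale.Agent.H17.ThinTree

/-!
P061 (strong thin tree conjecture): any constant `C` for which every `k`-edge-connected
multigraph has a `(C/k)`-thin spanning tree satisfies `C ≥ 4`.

The witnesses are the complete graphs `K_n` (which are `(n-1)`-edge-connected): every
spanning tree `T` is bipartite, and one of its colour classes `S` is crossed by all `n-1`
edges of `T`, while `|δ_{K_n}(S)| = |S| (n - |S|) ≤ n^2/4`.
-/

namespace Vale.Agent.Results.P061.A_ConstantAtLeastFour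

open Vale.Agent.H17.ThinTree

/-- The complete graph on `Fin n` as a multigraph: one edge copy for every non-diagonal
unordered pair. -/
def completeMG (n : ℕ) : MGraph (Fin n) {e : Sym2 (Fin n) // ¬ e.IsDiag} where
  ends := fun e => e.1
  loopless := fun e => e.2

lemma completeMG_crosses_iff (n : ℕ) (S : Set (Fin n)) (e : {e : Sym2 (Fin n) // ¬ e.IsDiag}) :
    (completeMG n).Crosses S e ↔ ∃ u v, u ∈ S ∧ v ∉ S ∧ e.1 = s(u, v) := by
  constructor
  · rintro ⟨u, hu, v, hv, huS, hvS⟩
    refine ⟨u, v, huS, hvS, ?_⟩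
    have huv : u ≠ v := by
      rintro rfl
      exact hvS huS
    have hu' : u ∈ e.1 := hu
    have hv' : v ∈ e.1 := hv
    exact ((Sym2.mem_and_mem_iff huv).1 ⟨hu', hv'⟩)
  · rintro ⟨u, v, huS, hvS, he⟩
    refine ⟨u, ?_, v, ?_, huS, hvS⟩
    · show u ∈ e.1
      rw [he]; exact Sym2.mem_mk_left u v
    · show v ∈ e.1
      rw [he]; exact Sym2.mem_mk_right u v

lemma completeMG_cutCount (n : ℕ) (S : Set (Fin n)) :
    (completeMG n).cutCount Set.univ S = S.ncard * (n - S.ncard) := by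
  unfold MGraph.cutCount
  have h1 : (S ×ˢ Sᶜ).ncard = S.ncard * (n - S.ncard) := by
    rw [Set.ncard_prod, Set.ncard_compl]
    simp
  rw [← h1]
  symm
  refine Set.ncard_congr (fun p hp => ⟨s(p.1, p.2), ?_⟩) ?_ ?_ ?_
  · intro hd
    have h : p.1 = p.2 := by simpa using hd
    have hp1 : p.1 ∈ S := hp.1
    have hp2 : p.2 ∉ S := hp.2
    exact hp2 (h ▸ hp1)
  · intro p hp
    refine ⟨Set.mem_univ _, ?_⟩
    rw [completeMG_crosses_iff]
    exact ⟨p.1, p.2, hp.1, hp.2, rfl⟩
  · rintro ⟨a1, a2⟩ ⟨b1, b2⟩ ha hb hab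
    have hab' : s(a1, a2) = s(b1, b2) := by simpa using congrArg Subtype.val hab
    rcases Sym2.eq_iff.1 hab' with ⟨h1, h2⟩ | ⟨h1, h2⟩
    · simp [h1, h2]
    · exfalso
      have ha1 : a1 ∈ S := ha.1
      have hb2 : b2 ∉ S := hb.2
      exact hb2 (h1 ▸ ha1)
  · rintro e ⟨-, he⟩
    rw [completeMG_crosses_iff] at he
    obtain ⟨u, v, hu, hv, he⟩ := he
    exact ⟨(u, v), ⟨hu, hv⟩, Subtype.ext he.symm⟩

lemma completeMG_edgeConnected (n : ℕ) : (completeMG n).EdgeConnected (n - 1) := by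
  intro S hne hun
  rw [completeMG_cutCount]
  have h1 : 1 ≤ S.ncard := by
    rw [Nat.succ_le_iff, Set.ncard_pos]
    exact hne
  have h2 : S.ncard < n := by
    have hlt : S.ncard < (Set.univ : Set (Fin n)).ncard :=
      Set.ncard_lt_ncard (Set.ssubset_univ_iff.2 hun)
    simpa using hlt
  obtain ⟨a, ha⟩ : ∃ a, S.ncard = a + 1 := ⟨S.ncard - 1, by omega⟩
  obtain ⟨b, hb⟩ : ∃ b, n - S.ncard = b + 1 := ⟨n - S.ncard - 1, by omega⟩
  have hn : n - 1 = a + b + 1 := by omega
  rw [hn, hb, ha]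
  nlinarith [Nat.zero_le (a * b)]

/-- In any finite loopless multigraph on at least two vertices, every spanning tree `T` has a
nonempty proper vertex set `S` crossed by all edges of `T`. -/
lemma exists_cut_all_tree_edges {V E : Type} [Fintype V] [Fintype E] (G : MGraph V E)
    (hV : 2 ≤ Fintype.card V) (T : Set E) (hT : G.IsSpanningTree T) :
    ∃ S : Set V, S.Nonempty ∧ S ≠ Set.univ ∧ G.cutCount T S = T.ncard := by
  classical
  obtain ⟨hcard, hconn⟩ := hT
  -- the simple graph of `T` is a tree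
  have hedges : Nat.card (G.toSimple T).edgeSet ≤ T.ncard := by
    have hsub : (G.toSimple T).edgeSet ⊆ G.ends '' T := by
      intro x hx
      induction x using Sym2.ind with
      | _ u v =>
        have hadj : (G.toSimple T).Adj u v := hx
        obtain ⟨e, he, hev⟩ := hadj.2
        exact ⟨e, he, hev⟩
    calc Nat.card (G.toSimple T).edgeSet = (G.toSimple T).edgeSet.ncard := by
          rw [Set.ncard_eq_toFinset_card', Nat.card_eq_fintype_card, Set.toFinset_card]
      _ ≤ (G.ends '' T).ncard := Set.ncard_le_ncard hsub (Set.toFinite _)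
      _ ≤ T.ncard := Set.ncard_image_le (Set.toFinite _)
  have hge := hconn.card_vert_le_card_edgeSet_add_one
  have htree : (G.toSimple T).IsTree := by
    rw [SimpleGraph.isTree_iff_connected_and_card]
    exact ⟨hconn, by omega⟩
  obtain ⟨c⟩ := htree.colorable_two
  have hcross : ∀ e ∈ T, ∃ u v, G.ends e = s(u, v) ∧ c u ≠ c v := by
    intro e he
    have hl := G.loopless e
    revert hl
    generalize hx : G.ends e = x
    induction x using Sym2.ind with
    | _ u v =>
      intro hl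
      have huv : u ≠ v := by simpa using hl
      have hadj : (G.toSimple T).Adj u v := ⟨huv, e, he, hx⟩
      exact ⟨u, v, rfl, c.valid hadj⟩
  have hTne : T.Nonempty := by
    rw [← Set.ncard_pos]
    rw [Nat.card_eq_fintype_card] at hcard
    omega
  obtain ⟨e0, he0⟩ := hTne
  obtain ⟨u0, v0, h0, hc0⟩ := hcross e0 he0
  have hfin2 : ∀ a b : Fin 2, a ≠ b → (a = 0 ∧ b ≠ 0) ∨ (b = 0 ∧ a ≠ 0) := by decide
  refine ⟨{v | c v = 0}, ?_, ?_, ?_⟩
  · rcases hfin2 _ _ hc0 with h | h
    · exact ⟨u0, h.1⟩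
    · exact ⟨v0, h.1⟩
  · intro hun
    rcases hfin2 _ _ hc0 with h | h
    · have : v0 ∈ {v | c v = 0} := by rw [hun]; exact Set.mem_univ _
      exact h.2 this
    · have : u0 ∈ {v | c v = 0} := by rw [hun]; exact Set.mem_univ _
      exact h.2 this
  · unfold MGraph.cutCount
    congr 1
    ext e
    constructor
    · exact fun h => h.1
    · intro he
      refine ⟨he, ?_⟩
      obtain ⟨u, v, huv, hc⟩ := hcross e he
      rcases hfin2 _ _ hc with h | h
      · refine ⟨u, ?_, v, ?_, h.1, h.2⟩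
        · rw [huv]; exact Sym2.mem_mk_left u v
        · rw [huv]; exact Sym2.mem_mk_right u v
      · refine ⟨v, ?_, u, ?_, h.1, h.2⟩
        · rw [huv]; exact Sym2.mem_mk_right u v
        · rw [huv]; exact Sym2.mem_mk_left u v

/-- **Lower bound 4 for the constant in the strong thin tree conjecture.**
If `C` is a real constant such that for every `k ≥ 1` every `k`-edge-connected finite loopless
multigraph on at least two vertices has a `(C/k)`-thin spanning tree, then `C ≥ 4`. -/
theorem result (C : ℝ)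
    (hC : ∀ (V E : Type) [Fintype V] [Fintype E] (G : MGraph V E) (k : ℕ),
      1 ≤ k → 2 ≤ Fintype.card V → G.EdgeConnected k →
        ∃ T : Set E, G.IsSpanningTree T ∧ G.IsThin T (C / k)) :
    4 ≤ C := by
  by_contra hlt
  have hlt : C < 4 := not_le.mp hlt
  -- choose `n` with `n (4 - C) > 8`
  obtain ⟨n, hn⟩ := exists_nat_gt (8 / (4 - C) + 2)
  have h4C : 0 < 4 - C := by linarith
  have hn2 : (2 : ℝ) < n := by
    have : 0 < 8 / (4 - C) := by positivity
    linarith
  have hn2' : 2 < n := by exact_mod_cast hn2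
  have hn8 : 8 < (n : ℝ) * (4 - C) := by
    have h1 : 8 / (4 - C) < (n : ℝ) := by linarith
    rw [div_lt_iff₀ h4C] at h1
    exact h1
  obtain ⟨T, hT, hthin⟩ := hC (Fin n) {e : Sym2 (Fin n) // ¬ e.IsDiag} (completeMG n) (n - 1)
    (by omega) (by simp; omega) (completeMG_edgeConnected n)
  obtain ⟨S, hSne, hSun, hScut⟩ := exists_cut_all_tree_edges (completeMG n) (by simp; omega) T hT
  have h1 := hthin S hSne hSun
  rw [hScut, completeMG_cutCount] at h1
  have hTcard : T.ncard = n - 1 := by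
    have := hT.1
    simp at this
    omega
  rw [hTcard] at h1
  have hs : S.ncard ≤ n := by
    have := Set.ncard_le_ncard (Set.subset_univ S) (Set.toFinite _)
    simpa using this
  push_cast [Nat.cast_sub hs, Nat.cast_sub (show 1 ≤ n by omega)] at h1
  -- h1 : (n - 1) ≤ C / (n - 1) * (s * (n - s))
  set s : ℝ := (S.ncard : ℝ) with hs_def
  have hn1 : (0 : ℝ) < (n : ℝ) - 1 := by linarith
  have hprod : s * ((n : ℝ) - s) ≤ (n : ℝ) ^ 2 / 4 := by nlinarith [sq_nonneg (2 * s - (n : ℝ))]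
  have hprod0 : 0 ≤ s * ((n : ℝ) - s) := by
    have h0 : (0 : ℝ) ≤ s := Nat.cast_nonneg _
    have h1' : s ≤ (n : ℝ) := by
      rw [hs_def]
      exact_mod_cast hs
    nlinarith
  have h2 : ((n : ℝ) - 1) ^ 2 ≤ C * (s * ((n : ℝ) - s)) := by
    have h3 : ((n : ℝ) - 1) * ((n : ℝ) - 1) ≤ (C / ((n : ℝ) - 1) * (s * ((n : ℝ) - s))) * ((n : ℝ) - 1) :=
      mul_le_mul_of_nonneg_right h1 hn1.le
    have h4 : (C / ((n : ℝ) - 1) * (s * ((n : ℝ) - s))) * ((n : ℝ) - 1) = C * (s * ((n : ℝ) - s)) := by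
      field_simp
    nlinarith
  have hCpos : 0 < C := by
    by_contra hC0
    have hC0 : C ≤ 0 := not_lt.mp hC0
    have : C * (s * ((n : ℝ) - s)) ≤ 0 := mul_nonpos_of_nonpos_of_nonneg hC0 hprod0
    nlinarith
  have h5 : ((n : ℝ) - 1) ^ 2 ≤ C * ((n : ℝ) ^ 2 / 4) :=
    h2.trans (mul_le_mul_of_nonneg_left hprod hCpos.le)
  nlinarith

end Vale.Agent.Results.P061.A_ConstantAtLeastFour
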