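import Mathlib
import Vale.Agent.H17.ThinTree
import Vale.Agent.Results.P061.A_ConstantAtLeastFour

/-!
P061 (strong thin tree conjecture), the case of complete graphs, with the sharp constant.

For `n ≥ 2` the complete graph `K_n` is `(n-1)`-edge-connected, and for a real `C` it has a
`(C/(n-1))`-thin spanning tree if and only if `C ≥ (n-1)^2 / ⌊n^2/4⌋`.  The threshold is below
`4` and tends to `4`: complete graphs satisfy the conjecture with `C = 4`, and with no smaller
constant.  The thin tree is a Hamiltonian path.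
-/

namespace Vale.Agent.Results.P061.A_CompleteGraphSharp

open Vale.Agent.H17.ThinTree Vale.Agent.Results.P061.A_ConstantAtLeastFour

/-- The edge copies of the Hamiltonian path `0 - 1 - ... - (n-1)` of the complete graph. -/
def pathEdges (n : ℕ) : Set {e : Sym2 (Fin n) // ¬ e.IsDiag} :=
  {e | ∃ u v : Fin n, u.val + 1 = v.val ∧ e.1 = s(u, v)}

lemma pathEdges_toSimple (n : ℕ) :
    SimpleGraph.pathGraph n ≤ (completeMG n).toSimple (pathEdges n) := by
  intro u v h
  rw [SimpleGraph.pathGraph_adj] at h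
  have hne : u ≠ v := by
    rintro rfl
    rcases h with h | h <;> omega
  refine ⟨hne, ?_⟩
  rcases h with h | h
  · exact ⟨⟨s(u, v), by simpa using hne⟩, ⟨u, v, h, rfl⟩, rfl⟩
  · exact ⟨⟨s(u, v), by simpa using hne⟩, ⟨v, u, h, Sym2.eq_swap⟩, rfl⟩

lemma pathEdges_ncard (n : ℕ) (hn : 1 ≤ n) : (pathEdges n).ncard + 1 = n := by
  classical
  have h : pathEdges n =
      Set.range (fun i : Fin (n - 1) =>
        (⟨s((⟨i.val, by omega⟩ : Fin n), (⟨i.val + 1, by omega⟩ : Fin n)), by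
          simp [Fin.ext_iff]⟩ : {e : Sym2 (Fin n) // ¬ e.IsDiag})) := by
    ext e
    constructor
    · rintro ⟨u, v, huv, he⟩
      refine ⟨⟨u.val, by omega⟩, Subtype.ext ?_⟩
      have h1 : (⟨u.val + 1, by omega⟩ : Fin n) = v := Fin.ext huv
      have h2 : (⟨u.val, u.isLt⟩ : Fin n) = u := Fin.ext rfl
      show s((⟨u.val, _⟩ : Fin n), (⟨u.val + 1, _⟩ : Fin n)) = e.1
      rw [he, h1]
    · rintro ⟨i, rfl⟩
      exact ⟨⟨i.val, by omega⟩, ⟨i.val + 1, by omega⟩, rfl, rfl⟩
  rw [h, Set.ncard_range_of_injective]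
  · simp; omega
  · intro i j hij
    have h1 := congrArg Subtype.val hij
    simp only at h1
    rcases Sym2.eq_iff.1 h1 with ⟨h2, -⟩ | ⟨h2, h3⟩
    · apply Fin.ext
      simpa [Fin.ext_iff] using h2
    · simp [Fin.ext_iff] at h2 h3
      omega

lemma pathEdges_spanning (n : ℕ) (hn : 1 ≤ n) : (completeMG n).IsSpanningTree (pathEdges n) := by
  refine ⟨by simpa using pathEdges_ncard n hn, ?_⟩
  obtain ⟨m, rfl⟩ : ∃ m, n = m + 1 := ⟨n - 1, by omega⟩
  exact (SimpleGraph.pathGraph_connected m).mono (pathEdges_toSimple (m + 1))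

/-- At most two path edges contain a given vertex. -/
lemma pathEdges_at_vertex (n : ℕ) (w : Fin n) :
    {e | e ∈ pathEdges n ∧ w ∈ (completeMG n).ends e}.ncard ≤ 2 := by
  classical
  have hsub : {e | e ∈ pathEdges n ∧ w ∈ (completeMG n).ends e} ⊆
      {e | ∃ u : Fin n, (u.val + 1 = w.val ∨ w.val + 1 = u.val) ∧ e.1 = s(u, w)} := by
    rintro e ⟨⟨u, v, huv, he⟩, hw⟩
    have hw' : w ∈ e.1 := hw
    rw [he, Sym2.mem_iff] at hw'
    rcases hw' with rfl | rfl
    · exact ⟨v, Or.inr huv, by rw [he, Sym2.eq_swap]⟩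
    · exact ⟨u, Or.inl huv, he⟩
  have hsub2 : (Subtype.val '' {e : {e : Sym2 (Fin n) // ¬ e.IsDiag} |
        ∃ u : Fin n, (u.val + 1 = w.val ∨ w.val + 1 = u.val) ∧ e.1 = s(u, w)}) ⊆
        ((fun u : Fin n => s(u, w)) '' {u : Fin n | u.val + 1 = w.val ∨ w.val + 1 = u.val}) := by
    rintro _ ⟨e, ⟨u, hu, he⟩, rfl⟩
    exact ⟨u, hu, he.symm⟩
  have hfin : ({u : Fin n | u.val + 1 = w.val ∨ w.val + 1 = u.val}).ncard ≤ 2 := by
    have hsub3 : {u : Fin n | u.val + 1 = w.val ∨ w.val + 1 = u.val} ⊆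
        {u : Fin n | u.val + 1 = w.val} ∪ {u : Fin n | w.val + 1 = u.val} := by
      intro u hu; exact hu
    have h1 : ({u : Fin n | u.val + 1 = w.val}).ncard ≤ 1 := by
      rw [Set.ncard_le_one]
      intro a ha b hb
      exact Fin.ext (by simp only [Set.mem_ofPred_eq] at ha hb; omega)
    have h2 : ({u : Fin n | w.val + 1 = u.val}).ncard ≤ 1 := by
      rw [Set.ncard_le_one]
      intro a ha b hb
      exact Fin.ext (by simp only [Set.mem_ofPred_eq] at ha hb; omega)
    calc _ ≤ ({u : Fin n | u.val + 1 = w.val} ∪ {u : Fin n | w.val + 1 = u.val}).ncard :=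
          Set.ncard_le_ncard hsub3 (Set.toFinite _)
      _ ≤ _ + _ := Set.ncard_union_le _ _
      _ ≤ 2 := by omega
  calc _ ≤ _ := Set.ncard_le_ncard hsub (Set.toFinite _)
    _ = _ := (Set.ncard_image_of_injective _ Subtype.val_injective).symm
    _ ≤ _ := Set.ncard_le_ncard hsub2 (Set.toFinite _)
    _ ≤ _ := Set.ncard_image_le (Set.toFinite _)
    _ ≤ 2 := hfin

/-- If every edge copy of `A` has an endpoint in the vertex set `B` and every vertex of `B` lies
on at most two edge copies of the path, then `|A| ≤ 2 |B|`. -/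
lemma path_count_le (n : ℕ) (A : Set {e : Sym2 (Fin n) // ¬ e.IsDiag}) (B : Set (Fin n))
    (hA : A ⊆ pathEdges n) (hB : ∀ e ∈ A, ∃ w ∈ B, w ∈ (completeMG n).ends e) :
    A.ncard ≤ 2 * B.ncard := by
  classical
  choose f hf using fun e : A => hB e.1 e.2
  have hfib : ∀ y : B, Nat.card {x : A // (⟨f x, (hf x).1⟩ : B) = y} ≤ 2 := by
    intro y
    have h1 : Nat.card {x : A // (⟨f x, (hf x).1⟩ : B) = y} ≤
        Nat.card ↥{e | e ∈ pathEdges n ∧ y.1 ∈ (completeMG n).ends e} := by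
      apply Nat.card_le_card_of_injective
        (fun x => (⟨x.1.1, hA x.1.2, by
          have h2 := (hf x.1).2
          have h3 : f x.1 = y.1 := congrArg Subtype.val x.2
          rw [← h3]; exact h2⟩ : ↥{e | e ∈ pathEdges n ∧ y.1 ∈ (completeMG n).ends e}))
      intro x x' hxx
      have h := congrArg Subtype.val hxx
      exact Subtype.ext (Subtype.ext h)
    rw [Nat.card_coe_set_eq] at h1
    exact h1.trans (pathEdges_at_vertex n y.1)
  have : Fintype ↥B := Fintype.ofFinite _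
  have key : Nat.card ↥A ≤ 2 * Nat.card ↥B := by
    rw [← Nat.card_congr (Equiv.sigmaFiberEquiv (fun x : A => (⟨f x, (hf x).1⟩ : B))),
      Nat.card_sigma]
    calc ∑ y : B, Nat.card {x : A // (⟨f x, (hf x).1⟩ : B) = y} ≤ ∑ _y : B, 2 :=
          Finset.sum_le_sum fun y _ => hfib y
      _ = 2 * Nat.card ↥B := by
          rw [Finset.sum_const, smul_eq_mul, Finset.card_univ, Nat.card_eq_fintype_card, mul_comm]
  rwa [Nat.card_coe_set_eq, Nat.card_coe_set_eq] at key

/-- The arithmetic behind the thinness of the path. -/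
lemma path_arith (n s c : ℕ) (hs : 1 ≤ s) (hsn : s + 1 ≤ n) (h1 : c ≤ 2 * s)
    (h2 : c ≤ 2 * (n - s)) (h3 : c ≤ n - 1) :
    c * (n * n / 4) ≤ (n - 1) * (s * (n - s)) := by
  obtain ⟨t, ht⟩ : ∃ t, n = s + t := ⟨n - s, by omega⟩
  obtain ⟨m, hm⟩ : ∃ m, n = m + 1 := ⟨n - 1, by omega⟩
  have ht1 : 1 ≤ t := by omega
  have e1 : n - s = t := by omega
  have e2 : n - 1 = m := by omega
  rw [e1] at h2 ⊢
  rw [e2] at h3 ⊢
  rcases Nat.even_or_odd' n with ⟨a, ha | ha⟩
  · have hq : n * n / 4 = a * a := by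
      rw [ha, show 2 * a * (2 * a) = 4 * (a * a) by ring]
      exact Nat.mul_div_cancel_left _ (by norm_num)
    rw [hq]
    rcases lt_trichotomy s a with hlt | heq | hgt
    · have h4 : 2 * (a * a) ≤ m * t := by nlinarith
      calc c * (a * a) ≤ 2 * s * (a * a) := Nat.mul_le_mul_right _ h1
        _ = s * (2 * (a * a)) := by ring
        _ ≤ s * (m * t) := Nat.mul_le_mul_left _ h4
        _ = m * (s * t) := by ring
    · have hta : t = a := by omega
      rw [heq, hta]
      exact Nat.mul_le_mul_right _ h3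
    · have h4 : 2 * (a * a) ≤ m * s := by nlinarith
      calc c * (a * a) ≤ 2 * t * (a * a) := Nat.mul_le_mul_right _ h2
        _ = t * (2 * (a * a)) := by ring
        _ ≤ t * (m * s) := Nat.mul_le_mul_left _ h4
        _ = m * (s * t) := by ring
  · have hq : n * n / 4 = a * a + a := by
      rw [ha, show (2 * a + 1) * (2 * a + 1) = 4 * (a * a + a) + 1 by ring]
      omega
    rw [hq]
    rcases le_or_gt s a with hle | hgt
    · have h4 : 2 * (a * a + a) ≤ m * t := by nlinarith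
      calc c * (a * a + a) ≤ 2 * s * (a * a + a) := Nat.mul_le_mul_right _ h1
        _ = s * (2 * (a * a + a)) := by ring
        _ ≤ s * (m * t) := Nat.mul_le_mul_left _ h4
        _ = m * (s * t) := by ring
    · have h4 : 2 * (a * a + a) ≤ m * s := by nlinarith
      calc c * (a * a + a) ≤ 2 * t * (a * a + a) := Nat.mul_le_mul_right _ h2
        _ = t * (2 * (a * a + a)) := by ring
        _ ≤ t * (m * s) := Nat.mul_le_mul_left _ h4
        _ = m * (s * t) := by ring

/-- The Hamiltonian path of `K_n`: cut sizes. -/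
lemma path_cut (n : ℕ) (hn : 2 ≤ n) (S : Set (Fin n)) (hne : S.Nonempty) (hun : S ≠ Set.univ) :
    (completeMG n).cutCount (pathEdges n) S * (n * n / 4) ≤
      (n - 1) * (completeMG n).cutCount Set.univ S := by
  rw [completeMG_cutCount]
  have hs1 : 1 ≤ S.ncard := by
    rw [Nat.succ_le_iff, Set.ncard_pos]
    exact hne
  have hs2 : S.ncard < n := by
    have hlt : S.ncard < (Set.univ : Set (Fin n)).ncard :=
      Set.ncard_lt_ncard (Set.ssubset_univ_iff.2 hun)
    simpa using hlt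
  apply path_arith n S.ncard _ hs1 hs2
  · unfold MGraph.cutCount
    apply path_count_le n _ S (fun e he => he.1)
    rintro e ⟨-, u, hu, v, hv, huS, hvS⟩
    exact ⟨u, huS, hu⟩
  · unfold MGraph.cutCount
    have hc : Sᶜ.ncard = n - S.ncard := by
      rw [Set.ncard_compl]; simp
    rw [← hc]
    apply path_count_le n _ Sᶜ (fun e he => he.1)
    rintro e ⟨-, u, hu, v, hv, huS, hvS⟩
    exact ⟨v, hvS, hv⟩
  · unfold MGraph.cutCount
    have h1 := pathEdges_ncard n (by omega)
    have h2 : {e | e ∈ pathEdges n ∧ (completeMG n).Crosses S e}.ncard ≤ (pathEdges n).ncard :=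
      Set.ncard_le_ncard (fun e he => he.1) (Set.toFinite _)
    omega

/-- **Complete graphs, with the sharp constant.**  Let `n ≥ 2`.  The complete graph `K_n` has
edge connectivity exactly `n - 1`; for every real `C` it has a `(C/(n-1))`-thin spanning tree if
and only if `(n-1)^2 / ⌊n^2/4⌋ ≤ C`; and this threshold is smaller than `4`. -/
theorem result (n : ℕ) (hn : 2 ≤ n) (C : ℝ) :
    ((completeMG n).EdgeConnected (n - 1) ∧ ¬ (completeMG n).EdgeConnected n) ∧
    ((∃ T : Set {e : Sym2 (Fin n) // ¬ e.IsDiag}, (completeMG n).IsSpanningTree T ∧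
        (completeMG n).IsThin T (C / ((n - 1 : ℕ) : ℝ))) ↔
      (((n - 1 : ℕ) : ℝ)) ^ 2 / ((n * n / 4 : ℕ) : ℝ) ≤ C) ∧
    (((n - 1 : ℕ) : ℝ)) ^ 2 / ((n * n / 4 : ℕ) : ℝ) < 4 := by
  have hq1 : 1 ≤ n * n / 4 := by
    rw [Nat.le_div_iff_mul_le (by norm_num)]
    nlinarith
  have hq : (0 : ℝ) < ((n * n / 4 : ℕ) : ℝ) := by exact_mod_cast hq1
  have hk : (0 : ℝ) < ((n - 1 : ℕ) : ℝ) := by
    have : 1 ≤ n - 1 := by omega
    exact_mod_cast this
  refine ⟨⟨completeMG_edgeConnected n, ?_⟩, ?_, ?_⟩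
  · intro hcon
    have h := hcon {(⟨0, by omega⟩ : Fin n)} (Set.singleton_nonempty _) (by
      intro h
      have h1 : (⟨1, by omega⟩ : Fin n) ∈ ({(⟨0, by omega⟩ : Fin n)} : Set (Fin n)) := by
        rw [h]; exact Set.mem_univ _
      simp [Fin.ext_iff] at h1)
    rw [completeMG_cutCount, Set.ncard_singleton] at h
    omega
  swap
  · rw [div_lt_iff₀ hq]
    have h1 : (n - 1) * (n - 1) + 1 ≤ 4 * (n * n / 4) := by
      have h2 : n * n < 4 * (n * n / 4) + 4 := by
        have := Nat.div_add_mod (n * n) 4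
        have := Nat.mod_lt (n * n) (show 0 < 4 by norm_num)
        omega
      obtain ⟨m, rfl⟩ : ∃ m, n = m + 2 := ⟨n - 2, by omega⟩
      have e : m + 2 - 1 = m + 1 := by omega
      rw [e]
      nlinarith
    have h3 : (((n - 1) * (n - 1) + 1 : ℕ) : ℝ) ≤ ((4 * (n * n / 4) : ℕ) : ℝ) := by
      exact_mod_cast h1
    push_cast at h3
    nlinarith
  constructor
  · rintro ⟨T, hT, hthin⟩
    obtain ⟨S, hSne, hSun, hScut⟩ :=
      exists_cut_all_tree_edges (completeMG n) (by simp; omega) T hT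
    have h1 := hthin S hSne hSun
    rw [hScut, completeMG_cutCount] at h1
    have hTcard : T.ncard = n - 1 := by
      have := hT.1
      simp at this
      omega
    rw [hTcard] at h1
    have hs : S.ncard ≤ n := by
      have := Set.ncard_le_ncard (Set.subset_univ S) (Set.toFinite _)
      simpa using this
    have hprodN : S.ncard * (n - S.ncard) ≤ n * n / 4 := by
      rw [Nat.le_div_iff_mul_le (by norm_num)]
      obtain ⟨t, ht⟩ : ∃ t, n = S.ncard + t := ⟨n - S.ncard, by omega⟩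
      have e1 : n - S.ncard = t := by omega
      rw [e1]
      have e2 : n * n = (S.ncard + t) * (S.ncard + t) := by rw [← ht]
      rw [e2]
      zify
      nlinarith [sq_nonneg ((S.ncard : ℤ) - t)]
    have hprod : ((S.ncard * (n - S.ncard) : ℕ) : ℝ) ≤ ((n * n / 4 : ℕ) : ℝ) := by
      exact_mod_cast hprodN
    have hprod0 : (0 : ℝ) ≤ ((S.ncard * (n - S.ncard) : ℕ) : ℝ) := Nat.cast_nonneg _
    have hCpos : 0 < C := by
      by_contra hC0
      have hC0 : C ≤ 0 := not_lt.mp hC0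
      have : C / ((n - 1 : ℕ) : ℝ) * ((S.ncard * (n - S.ncard) : ℕ) : ℝ) ≤ 0 :=
        mul_nonpos_of_nonpos_of_nonneg (div_nonpos_of_nonpos_of_nonneg hC0 hk.le) hprod0
      linarith
    have h2 : ((n - 1 : ℕ) : ℝ) ≤ C / ((n - 1 : ℕ) : ℝ) * ((n * n / 4 : ℕ) : ℝ) :=
      h1.trans (mul_le_mul_of_nonneg_left hprod (div_nonneg hCpos.le hk.le))
    rw [div_le_iff₀ hq]
    have h3 : C / ((n - 1 : ℕ) : ℝ) * ((n * n / 4 : ℕ) : ℝ) * ((n - 1 : ℕ) : ℝ) =
        C * ((n * n / 4 : ℕ) : ℝ) := by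
      field_simp
    have h4 := mul_le_mul_of_nonneg_right h2 hk.le
    rw [h3] at h4
    nlinarith
  · intro hC
    refine ⟨pathEdges n, pathEdges_spanning n (by omega), ?_⟩
    intro S hSne hSun
    have h1 := path_cut n hn S hSne hSun
    have h1' : ((completeMG n).cutCount (pathEdges n) S : ℝ) * ((n * n / 4 : ℕ) : ℝ) ≤
        ((n - 1 : ℕ) : ℝ) * ((completeMG n).cutCount Set.univ S : ℝ) := by
      exact_mod_cast h1
    have h0 : (0 : ℝ) ≤ ((completeMG n).cutCount Set.univ S : ℝ) := Nat.cast_nonneg _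
    rw [div_le_iff₀ hq] at hC
    have h5 : ((n - 1 : ℕ) : ℝ) / ((n * n / 4 : ℕ) : ℝ) ≤ C / ((n - 1 : ℕ) : ℝ) := by
      rw [div_le_div_iff₀ hq hk]
      nlinarith
    calc ((completeMG n).cutCount (pathEdges n) S : ℝ)
        ≤ ((n - 1 : ℕ) : ℝ) * ((completeMG n).cutCount Set.univ S : ℝ) / ((n * n / 4 : ℕ) : ℝ) := by
          rw [le_div_iff₀ hq]; exact h1'
      _ = ((n - 1 : ℕ) : ℝ) / ((n * n / 4 : ℕ) : ℝ) * ((completeMG n).cutCount Set.univ S : ℝ) := by
          ring
      _ ≤ C / ((n - 1 : ℕ) : ℝ) * ((completeMG n).cutCount Set.univ S : ℝ) :=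
          mul_le_mul_of_nonneg_right h5 h0

end Vale.Agent.Results.P061.A_CompleteGraphSharp
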