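import Mathlib
import Vale.Agent.H17.ThinTree
import Vale.Agent.H17.Dense.Main

/-!
P061 (strong thin tree conjecture): the case of dense simple graphs.

Every `k`-edge-connected simple graph on `n ≥ 2` vertices (a multigraph of the problem in which
distinct edge copies have distinct pairs of end points) has a spanning tree `T` with
`|δ_T(S)| ≤ ((32 (n/k)^2 + 10 (n/k)) / k) |δ_G(S)|` for every nonempty proper vertex set `S`.
In particular, if `k ≥ ε n` then `T` is `(C/k)`-thin with `C = 42/ε^2`.
-/

namespace Vale.Agent.Results.P061.B_DenseSimpleGraphs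

open Vale.Agent.H17.ThinTree

theorem result :
    ∀ (V E : Type) [Fintype V] [Fintype E] (G : MGraph V E) (k : ℕ),
      1 ≤ k → 2 ≤ Fintype.card V → Function.Injective G.ends → G.EdgeConnected k →
      (∃ T : Set E, G.IsSpanningTree T ∧
        G.IsThin T
          ((32 * ((Fintype.card V : ℝ) / k) ^ 2 + 10 * ((Fintype.card V : ℝ) / k)) / k)) ∧
      (∀ ε : ℝ, 0 < ε → ε * (Fintype.card V : ℝ) ≤ k →
        ∃ T : Set E, G.IsSpanningTree T ∧ G.IsThin T (42 / ε ^ 2 / k)) := by
  intro V E _ _ G k hk1 hV hinj hk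
  classical
  obtain ⟨hkn, F, hF, hcut⟩ := Vale.Agent.H17.Dense.dense_core G k hk1 hV hinj hk
  have hn : (0 : ℝ) < (Fintype.card V : ℝ) := by
    have : 0 < Fintype.card V := by omega
    exact_mod_cast this
  have hkpos : (0 : ℝ) < (k : ℝ) := by exact_mod_cast hk1
  have key : G.IsThin (F : Set E)
      ((32 * ((Fintype.card V : ℝ) / k) ^ 2 + 10 * ((Fintype.card V : ℝ) / k)) / k) := by
    intro S hS hS2
    have h := hcut S.toFinset (by simpa using hS) (by
      intro h
      apply hS2
      have h2 : ((S.toFinset : Finset V) : Set V) = ((Finset.univ : Finset V) : Set V) := by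
        rw [h]
      simpa using h2)
    simp only [Set.coe_toFinset] at h
    have hq : 4 * Fintype.card V / k * k ≤ 4 * Fintype.card V := Nat.div_mul_le_self _ _
    have h2 : k * k * k * G.cutCount (F : Set E) S ≤
        (32 * Fintype.card V * Fintype.card V + 10 * Fintype.card V * k) *
          G.cutCount Set.univ S := by
      refine le_trans h (Nat.mul_le_mul_right _ ?_)
      have h3 : 8 * Fintype.card V * (4 * Fintype.card V / k + 1) * k =
          8 * Fintype.card V * (4 * Fintype.card V / k * k) + 8 * Fintype.card V * k := by ring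
      rw [h3]
      have h4 : 8 * Fintype.card V * (4 * Fintype.card V / k * k) ≤
          8 * Fintype.card V * (4 * Fintype.card V) := Nat.mul_le_mul_left _ hq
      nlinarith [h4]
    have h5 : (k : ℝ) * k * k * (G.cutCount (F : Set E) S : ℝ) ≤
        (32 * (Fintype.card V : ℝ) * (Fintype.card V : ℝ) + 10 * (Fintype.card V : ℝ) * k) *
          (G.cutCount Set.univ S : ℝ) := by exact_mod_cast h2
    have h6 : (32 * ((Fintype.card V : ℝ) / k) ^ 2 + 10 * ((Fintype.card V : ℝ) / k)) / k *
        (G.cutCount Set.univ S : ℝ) =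
        (32 * (Fintype.card V : ℝ) * (Fintype.card V : ℝ) + 10 * (Fintype.card V : ℝ) * k) *
          (G.cutCount Set.univ S : ℝ) / ((k : ℝ) * k * k) := by
      field_simp
    rw [h6, le_div_iff₀ (by positivity)]
    linarith
  refine ⟨⟨F, hF, key⟩, ?_⟩
  intro ε hε hεk
  refine ⟨F, hF, ?_⟩
  have hkn' : (k : ℝ) < (Fintype.card V : ℝ) := by exact_mod_cast hkn
  have hε1 : ε < 1 := by
    by_contra hcon
    have : (Fintype.card V : ℝ) ≤ ε * (Fintype.card V : ℝ) := by nlinarith
    linarith
  have ht : (Fintype.card V : ℝ) / k ≤ 1 / ε := by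
    rw [div_le_div_iff₀ hkpos hε]
    linarith
  have ht0 : 0 < (Fintype.card V : ℝ) / k := by positivity
  have hs1 : 1 ≤ 1 / ε := by
    rw [le_div_iff₀ hε]
    linarith
  have hA : 32 * ((Fintype.card V : ℝ) / k) ^ 2 + 10 * ((Fintype.card V : ℝ) / k) ≤
      42 / ε ^ 2 := by
    have h1 : 42 / ε ^ 2 = 42 * (1 / ε) ^ 2 := by
      field_simp
    rw [h1]
    nlinarith
  intro S hS hS2
  have h := key S hS hS2
  have hy : (0 : ℝ) ≤ (G.cutCount Set.univ S : ℝ) := Nat.cast_nonneg _
  refine le_trans h ?_
  gcongr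

end Vale.Agent.Results.P061.B_DenseSimpleGraphs
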