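import Mathlib
import Vale.Agent.H17.ThinTree
import Vale.Agent.H17.Dense.MinDegFinal
import Vale.Agent.Results.P061.A_ConstantAtLeastFour

/-!
P061 (strong thin tree conjecture): a lower bound on the constant together with the case of
graphs of large minimum degree.

(1) Any constant `C` for which every `k`-edge-connected multigraph on at least two vertices has
a `(C/k)`-thin spanning tree satisfies `C ≥ 4`.
(2) Every `k`-edge-connected loopless multigraph on `n ≥ 2` vertices in which every vertex has
at least `d ≥ 1` distinct neighbours has a spanning tree `T` with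
`|δ_T(S)| ≤ (32 n^2 / d^3 + 8 n / d^2 + 2 n / (d k)) |δ_G(S)|` for every nonempty proper `S`.
(3) Every `k`-edge-connected simple graph on `n ≥ 2` vertices in which every vertex has at
least `ε n` neighbours has a `((42/ε^2)/k)`-thin spanning tree.
-/

namespace Vale.Agent.Results.P061.C_LowerBoundAndDense

open Vale.Agent.H17.ThinTree

theorem result :
    (∀ C : ℝ,
      (∀ (V E : Type) [Fintype V] [Fintype E] (G : MGraph V E) (k : ℕ),
        1 ≤ k → 2 ≤ Fintype.card V → G.EdgeConnected k →
          ∃ T : Set E, G.IsSpanningTree T ∧ G.IsThin T (C / k)) →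
      4 ≤ C) ∧

    (∀ (V E : Type) [Fintype V] [Fintype E] (G : MGraph V E) (k d : ℕ),
      1 ≤ k → 1 ≤ d → 2 ≤ Fintype.card V → G.EdgeConnected k →
      (∀ v : V, d ≤ Set.ncard {w : V | (G.toSimple Set.univ).Adj v w}) →
      ∃ T : Set E, G.IsSpanningTree T ∧
        G.IsThin T
          (32 * (Fintype.card V : ℝ) ^ 2 / (d : ℝ) ^ 3 + 8 * (Fintype.card V : ℝ) / (d : ℝ) ^ 2
            + 2 * (Fintype.card V : ℝ) / ((d : ℝ) * k))) ∧
    (∀ (V E : Type) [Fintype V] [Fintype E] (G : MGraph V E) (k : ℕ),
      1 ≤ k → 2 ≤ Fintype.card V → Function.Injective G.ends → G.EdgeConnected k →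
      ∀ ε : ℝ, 0 < ε →
      (∀ v : V, ε * (Fintype.card V : ℝ) ≤
        (Set.ncard {w : V | (G.toSimple Set.univ).Adj v w} : ℝ)) →
      ∃ T : Set E, G.IsSpanningTree T ∧ G.IsThin T (42 / ε ^ 2 / k)) :=
  ⟨fun C hC => Vale.Agent.Results.P061.A_ConstantAtLeastFour.result C hC,
    Vale.Agent.H17.Dense.mindeg_result.1, Vale.Agent.H17.Dense.mindeg_result.2⟩

end Vale.Agent.Results.P061.C_LowerBoundAndDense
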